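import Mathlib

/-!
# Planar graphs (topological definition) and rotation systems
-/

namespace Vale.Agent.Planar

/-- A simple graph is *planar* if it can be drawn in the Euclidean plane without crossings:
the vertices are distinct points `p v`; every edge `uv` is a simple arc (an injective path) from
`p u` to `p v` (the arc for `vu` is the same arc traversed backwards); an arc passes through no
vertex point other than its two ends; and the arcs of two different edges have no common point
other than vertex points. -/
def IsPlanar {V : Type*} (G : SimpleGraph V) : Prop :=
  ∃ (p : V → EuclideanSpace ℝ (Fin 2)) (γ : ∀ u v, G.Adj u v → Path (p u) (p v)),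
    Function.Injective p ∧
    (∀ u v h, Function.Injective (γ u v h)) ∧
    (∀ u v (h : G.Adj u v), γ v u h.symm = (γ u v h).symm) ∧
    (∀ u v h t w, γ u v h t = p w → w = u ∨ w = v) ∧
    (∀ u v h u' v' h' s t, s(u, v) ≠ s(u', v') → γ u v h s = γ u' v' h' t →
      ∃ w, γ u v h s = p w)

/-- The involution reversing a dart, as a permutation of the darts. -/
def dartSymmPerm {V : Type*} (G : SimpleGraph V) : Equiv.Perm G.Dart :=
  SimpleGraph.Dart.symm_involutive.toPerm

@[simp] theorem dartSymmPerm_apply {V : Type*} (G : SimpleGraph V) (d : G.Dart) :
    dartSymmPerm G d = d.symm := rfl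

end Vale.Agent.Planar
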