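import Mathlib

/-!
# The cyclic successor permutation on the fibres of a map
-/

namespace Vale.Agent.Planar

theorem exists_cyclic_succ {D V : Type*} [Fintype D] (f : D → V) (θ : D → ℝ)
    (hθ : ∀ d d', f d = f d' → θ d = θ d' → d = d') :
    ∃ ρ : Equiv.Perm D, (∀ d, f (ρ d) = f d) ∧ (∀ d d', f d = f d' → ρ.SameCycle d d') ∧
      ∀ d, (∀ d', f d' = f d → (θ d' < θ (ρ d) ↔ θ d' ≤ θ d)) ∨
        ((∀ d', f d' = f d → θ d' ≤ θ d) ∧ ∀ d', f d' = f d → θ (ρ d) ≤ θ d') := by
  classical
  have hex : ∀ d, ∃ e, f e = f d ∧ ((∀ d', f d' = f d → (θ d' < θ e ↔ θ d' ≤ θ d)) ∨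
      ((∀ d', f d' = f d → θ d' ≤ θ d) ∧ ∀ d', f d' = f d → θ e ≤ θ d')) := by
    intro d
    by_cases h : (Finset.univ.filter fun d' => f d' = f d ∧ θ d < θ d').Nonempty
    · obtain ⟨e, he, hmin⟩ := Finset.exists_min_image _ θ h
      simp only [Finset.mem_filter, Finset.mem_univ, true_and] at he hmin
      refine ⟨e, he.1, Or.inl fun d' hd' => ⟨fun h1 => ?_, fun h1 => h1.trans_lt he.2⟩⟩
      by_contra h2
      exact absurd (hmin d' ⟨hd', not_le.1 h2⟩) (not_le.2 h1)
    · obtain ⟨e, he, hmin⟩ := Finset.exists_min_image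
        (Finset.univ.filter fun d' => f d' = f d) θ ⟨d, by simp⟩
      simp only [Finset.mem_filter, Finset.mem_univ, true_and] at he hmin
      refine ⟨e, he, Or.inr ⟨fun d' hd' => ?_, hmin⟩⟩
      by_contra h2
      exact h ⟨d', by simp [hd', not_le.1 h2]⟩
  choose σ hf hσ using hex
  have hinj : Function.Injective σ := by
    intro a b hab
    have hfab : f a = f b := by rw [← hf a, ← hf b, hab]
    refine hθ a b hfab ?_
    rcases hσ a with ha | ha <;> rcases hσ b with hb | hb
    · apply le_antisymm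
      · exact (hb a hfab).1 (hab ▸ (ha a rfl).2 le_rfl)
      · exact (ha b hfab.symm).1 (hab ▸ (hb b rfl).2 le_rfl)
    · exact absurd ((ha a rfl).2 le_rfl) (not_lt.2 (hab ▸ hb.2 a hfab))
    · exact absurd ((hb b rfl).2 le_rfl) (not_lt.2 (hab ▸ ha.2 b hfab.symm))
    · exact le_antisymm (hb.1 a hfab) (ha.1 b hfab.symm)
  let ρ : Equiv.Perm D := Equiv.ofBijective σ (Finite.injective_iff_bijective.1 hinj)
  have hρ : ∀ d, ρ d = σ d := fun _ => rfl
  refine ⟨ρ, hf, ?_, hσ⟩
  have key : ∀ n : ℕ, ∀ d d', f d = f d' → θ d ≤ θ d' →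
      (Finset.univ.filter fun e => f e = f d ∧ θ d < θ e).card = n → ρ.SameCycle d d' := by
    intro n
    induction n using Nat.strong_induction_on with
    | _ n ih =>
      intro d d' hfd hle hn
      rcases hle.eq_or_lt with heq | hlt
      · rw [hθ d d' hfd heq]
      · rcases hσ d with h | h
        · have h1 : θ d < θ (σ d) := (h d rfl).2 le_rfl
          have h2 : θ (σ d) ≤ θ d' := by
            by_contra h3
            exact absurd ((h d' hfd.symm).1 (not_le.1 h3)) (not_le.2 hlt)
          have h3 : ρ.SameCycle (σ d) d' := by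
            refine ih _ ?_ (σ d) d' ((hf d).trans hfd) h2 rfl
            rw [← hn]
            refine Finset.card_lt_card ⟨fun e he => ?_, fun hsub => ?_⟩
            · simp only [Finset.mem_filter, Finset.mem_univ, true_and] at he ⊢
              exact ⟨he.1.trans (hf d), h1.trans he.2⟩
            · have := hsub (Finset.mem_filter.2 ⟨Finset.mem_univ (σ d), hf d, h1⟩)
              simp at this
          rw [← hρ] at h3
          exact Equiv.Perm.sameCycle_apply_left.1 h3
        · exact absurd (h.1 d' hfd.symm) (not_le.2 hlt)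
  intro d d' hfd
  rcases le_total (θ d) (θ d') with h | h
  · exact key _ d d' hfd h rfl
  · exact (key _ d' d hfd.symm h rfl).symm

end Vale.Agent.Planar
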