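import Vale.Agent.Planar.Local
import Vale.Agent.Planar.Rot

/-!
# A planar graph has a rotation system satisfying Euler's inequality
-/

namespace Vale.Agent.Planar

open Complex Module

variable {V : Type*} {G : SimpleGraph V}

theorem Tame.exists_rotation (T : Tame G) [Fintype G.Dart] [DecidableEq V] :
    ∃ ρ : Equiv.Perm G.Dart, (∀ d, (ρ d).fst = d.fst) ∧
      (∀ d e : G.Dart, d.fst = e.fst → ρ.SameCycle d e) ∧
      ∀ c : G.Dart → ℝ, IsCirc c → ∃ R : G.Dart → ℝ, (∀ d, R (ρ d.symm) = R d) ∧
        ∀ d, R d.symm - R d = c d := by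
  have hθ : ∀ d d' : G.Dart, d.fst = d'.fst → arg (T.r d) = arg (T.r d') → d = d' :=
    fun d d' h1 h2 => T.r_inj h1 (ext_norm_arg (by rw [T.norm_r, T.norm_r]) h2)
  obtain ⟨ρ, h1, h2, h3⟩ := exists_cyclic_succ (fun d : G.Dart => d.fst) (fun d => arg (T.r d)) hθ
  refine ⟨ρ, h1, h2, fun c hc => ?_⟩
  have hπ : (2 * Real.pi) ≠ 0 := by positivity
  let R : G.Dart → ℝ := fun d => (T.S c d).im / (2 * Real.pi) - c d / 2
  have hs : ∀ d, R d.symm - R d = c d := fun d => by
    simp only [R]
    rw [T.S_symm hc, hc.symm]; ring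
  have hR : ∀ d, R d = ((T.K c d.fst).im + ∑ d' with d'.fst = d.fst, c d' * arg (T.r d')) /
      (2 * Real.pi) + ∑ d' with d'.fst = d.fst ∧ arg (T.r d') < arg (T.r d), c d' := fun d => by
    simp only [R]
    rw [T.S_im hc]
    field_simp
    ring
  have hle : ∀ d : G.Dart, ∑ d' with d'.fst = d.fst ∧ arg (T.r d') ≤ arg (T.r d), c d' =
      ∑ d' with d'.fst = d.fst ∧ arg (T.r d') < arg (T.r d), c d' + c d := fun d => by
    rw [← Finset.add_sum_erase (Finset.univ.filter fun d' : G.Dart =>
      d'.fst = d.fst ∧ arg (T.r d') ≤ arg (T.r d)) c (a := d) (by simp), add_comm]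
    congr 1
    refine Finset.sum_congr ?_ fun _ _ => rfl
    ext x
    simp only [Finset.mem_erase, Finset.mem_filter, Finset.mem_univ, true_and]
    constructor
    · rintro ⟨a1, a2, a3⟩
      exact ⟨a2, lt_of_le_of_ne a3 fun h => a1 (hθ _ _ a2 h)⟩
    · rintro ⟨a1, a2⟩
      exact ⟨fun h => by rw [h] at a2; exact lt_irrefl _ a2, a1, a2.le⟩
  have hρ : ∀ d, R (ρ d) = R d + c d := fun d => by
    have h4 : (ρ d).fst = d.fst := h1 d
    rw [hR, hR, h4, add_assoc, ← hle]
    congr 1
    rcases h3 d with h | h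
    · refine Finset.sum_congr ?_ fun _ _ => rfl
      ext x
      simp only [Finset.mem_filter, Finset.mem_univ, true_and]
      exact and_congr_right fun hx => h x hx
    · rw [Finset.sum_eq_zero (fun x hx => by
        simp only [Finset.mem_filter, Finset.mem_univ, true_and] at hx
        exact absurd (h.2 x hx.1) (not_le.2 hx.2)), ← hc.sum d.fst]
      refine Finset.sum_congr ?_ fun _ _ => rfl
      ext x
      simp only [Finset.mem_filter, Finset.mem_univ, true_and]
      exact ⟨fun hx => ⟨hx, h.1 x hx⟩, fun hx => hx.1⟩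
  refine ⟨R, fun d => ?_, hs⟩
  rw [hρ, hc.symm]
  linarith [hs d]

theorem euler_of_potentials [Fintype V] [DecidableEq V] [DecidableRel G.Adj] [Nonempty G.Dart]
    (φ : Equiv.Perm G.Dart)
    (h : ∀ c : G.Dart → ℝ, IsCirc c → ∃ R : G.Dart → ℝ, (∀ d, R (φ d) = R d) ∧
      ∀ d, R d.symm - R d = c d) :
    G.edgeFinset.card + 2 ≤
      Fintype.card V + Nat.card (Quotient (Equiv.Perm.SameCycle.setoid φ)) := by
  classical
  set Q := Quotient (Equiv.Perm.SameCycle.setoid φ)
  let q : G.Dart → Q := Quotient.mk _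
  have : Finite Q := Quotient.finite _
  let bd : (Q → ℝ) →ₗ[ℝ] (G.Dart → ℝ) :=
    { toFun := fun f d => f (q d.symm) - f (q d)
      map_add' := fun f g => by ext d; simp; ring
      map_smul' := fun a f => by ext d; simp; ring }
  let Φ : (G.Dart → ℝ) →ₗ[ℝ] (G.edgeFinset → ℝ) × (V → ℝ) :=
    { toFun := fun c => (fun e => ∑ d with d.edge = e.1, c d, fun u => ∑ d with d.fst = u, c d)
      map_add' := fun f g => by ext <;> simp [Finset.sum_add_distrib]
      map_smul' := fun a f => by ext <;> simp [Finset.mul_sum] }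
  have h1 : LinearMap.ker Φ ≤ LinearMap.range bd := by
    intro c hc
    have hc' : IsCirc c := by
      refine ⟨fun d => ?_, fun u => congrFun (congrArg Prod.snd hc) u⟩
      have := congrFun (congrArg Prod.fst hc) ⟨d.edge, by simp⟩
      simp only [Φ, LinearMap.coe_mk, AddHom.coe_mk, Prod.fst_zero, Pi.zero_apply] at this
      rw [SimpleGraph.Dart.edge_fiber, Finset.sum_pair d.symm_ne.symm] at this
      linarith
    obtain ⟨R, hR1, hR2⟩ := h c hc'
    have hpow : ∀ (n : ℕ) d, R ((φ ^ n) d) = R d := by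
      intro n
      induction n with
      | zero => simp
      | succ n ih => intro d; rw [pow_succ', Equiv.Perm.mul_apply, hR1, ih]
    refine ⟨Quotient.lift R fun a b hab => ?_, ?_⟩
    · obtain ⟨n, hn⟩ := Equiv.Perm.SameCycle.exists_nat_pow_eq hab
      rw [← hn, hpow]
    · ext d
      exact hR2 d
  have h2 := LinearMap.finrank_range_add_finrank_ker bd
  have h3 := LinearMap.finrank_range_add_finrank_ker Φ
  have h4 := Submodule.finrank_mono h1
  have h5 : 0 < finrank ℝ (LinearMap.ker bd) := by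
    rw [Module.finrank_pos_iff_exists_ne_zero]
    refine ⟨⟨fun _ => 1, by ext d; simp [bd]⟩, fun h0 => ?_⟩
    have := congrFun (congrArg Subtype.val h0) (q (Classical.arbitrary _))
    simp at this
  have h6 : finrank ℝ (LinearMap.range Φ) < finrank ℝ ((G.edgeFinset → ℝ) × (V → ℝ)) := by
    refine Submodule.finrank_lt fun htop => ?_
    obtain ⟨c, hc⟩ := LinearMap.range_eq_top.1 htop (0, fun _ => 1)
    have a1 : ∀ e : G.edgeFinset, ∑ d with d.edge = e.1, c d = 0 :=
      fun e => congrFun (congrArg Prod.fst hc) e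
    have a2 : ∀ u : V, ∑ d with d.fst = u, c d = 1 :=
      fun u => congrFun (congrArg Prod.snd hc) u
    have b1 := Finset.sum_fiberwise_of_maps_to (s := Finset.univ) (t := G.edgeFinset)
      (g := fun d : G.Dart => d.edge) (fun d _ => by simp) c
    have b2 := Finset.sum_fiberwise (s := Finset.univ) (g := fun d : G.Dart => d.fst) c
    rw [Finset.sum_eq_zero (fun e he => a1 ⟨e, he⟩)] at b1
    simp only [a2, Finset.sum_const, Finset.card_univ, nsmul_eq_mul, mul_one] at b2
    have : Nonempty V := ⟨(Classical.arbitrary G.Dart).fst⟩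
    have : (0 : ℝ) < Fintype.card V := by exact_mod_cast Fintype.card_pos
    linarith
  rw [finrank_prod, finrank_fintype_fun_eq_card, finrank_fintype_fun_eq_card,
    Fintype.card_coe] at h6
  rw [finrank_fintype_fun_eq_card, SimpleGraph.dart_card_eq_twice_card_edges] at h3
  have := Fintype.ofFinite Q
  rw [finrank_fintype_fun_eq_card, ← Nat.card_eq_fintype_card] at h2
  omega

/-- A finite planar graph with at least one edge has a rotation system whose number `F` of face
cycles satisfies `E + 2 ≤ V + F`. -/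
theorem exists_rotation [Fintype V] [DecidableEq V] (G : SimpleGraph V) [DecidableRel G.Adj]
    [Nonempty G.Dart] (h : IsPlanar G) :
    ∃ ρ : Equiv.Perm G.Dart, (∀ d, (ρ d).fst = d.fst) ∧
      (∀ d e : G.Dart, d.fst = e.fst → ρ.SameCycle d e) ∧
      G.edgeFinset.card + 2 ≤ Fintype.card V +
        Nat.card (Quotient (Equiv.Perm.SameCycle.setoid (ρ * dartSymmPerm G))) := by
  obtain ⟨T⟩ := exists_tame h
  obtain ⟨ρ, h1, h2, h3⟩ := T.exists_rotation
  exact ⟨ρ, h1, h2, euler_of_potentials _ h3⟩

end Vale.Agent.Planar
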