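import Vale.Agent.Planar.Wind

/-!
# The local computation of the winding sums at a vertex
-/

namespace Vale.Agent.Planar

open Set Complex

theorem arg_aux {ψ : ℝ} (h1 : -Real.pi < ψ) (h2 : ψ < Real.pi) :
    arg (1 + 2 * exp (ψ * I)) - arg (1 + exp (-(ψ * I)) / 2) = ψ := by
  have hx : (2 : ℂ) * exp (ψ * I) ≠ 0 := mul_ne_zero two_ne_zero (exp_ne_zero _)
  have hy : (1 : ℂ) + exp (-(ψ * I)) / 2 ≠ 0 := by
    intro h
    have h3 : exp (-(ψ * I)) = -2 := by linear_combination 2 * h
    have h4 := congrArg (fun z : ℂ => ‖z‖) h3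
    simp [norm_exp] at h4
  have hax : arg ((2 : ℂ) * exp (ψ * I)) = ψ := by
    have := arg_mul_cos_add_sin_mul_I (r := 2) (by norm_num) (θ := ψ) ⟨h1, h2.le⟩
    rw [← exp_mul_I] at this
    exact_mod_cast this
  have him : ((1 : ℂ) + exp (-(ψ * I)) / 2).im = - Real.sin ψ / 2 := by
    rw [← neg_mul, ← ofReal_neg]
    simp [exp_ofReal_mul_I_im, -ofReal_neg]
  have hprod : (1 : ℂ) + 2 * exp (ψ * I) = (2 * exp (ψ * I)) * (1 + exp (-(ψ * I)) / 2) := by
    have : exp (ψ * I) * exp (-(ψ * I)) = 1 := by rw [← exp_add]; simp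
    linear_combination -this
  have hb1 := neg_pi_lt_arg (1 + exp (-(ψ * I)) / 2)
  have hb2 := arg_le_pi (1 + exp (-(ψ * I)) / 2)
  rw [hprod, (arg_mul_eq_add_arg_iff hx hy).2, hax]
  · ring
  · rw [hax]
    rcases lt_trichotomy ψ 0 with h | h | h
    · have : 0 ≤ arg (1 + exp (-(ψ * I)) / 2) := by
        rw [arg_nonneg_iff, him]
        have := Real.sin_neg_of_neg_of_neg_pi_lt h h1
        linarith
      constructor <;> linarith
    · constructor <;> linarith
    · have : arg (1 + exp (-(ψ * I)) / 2) < 0 := by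
        rw [arg_neg_iff, him]
        have := Real.sin_pos_of_pos_of_lt_pi h h2
        linarith
      constructor <;> linarith

theorem arg_key {x y : ℂ} (hx : x ≠ 0) (hxy : ‖y‖ = ‖x‖) (hne : arg y ≠ arg x) :
    (log (1 - 2 * y / x)).im - (log (1 - x / 2 / y)).im =
      arg y - arg x + if arg y < arg x then Real.pi else - Real.pi := by
  have hn : (‖x‖ : ℂ) ≠ 0 := by exact_mod_cast norm_ne_zero_iff.2 hx
  have key : ∀ ψ : ℝ, exp (ψ * I) = - exp ((arg y - arg x) * I) → -Real.pi < ψ → ψ < Real.pi →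
      (log (1 - 2 * y / x)).im - (log (1 - x / 2 / y)).im = ψ := by
    intro ψ hψ h1 h2
    have e0 : y / x = exp ((arg y - arg x) * I) := by
      conv_lhs => rw [← norm_mul_exp_arg_mul_I x, ← norm_mul_exp_arg_mul_I y, hxy]
      rw [sub_mul, exp_sub]
      field_simp
    have e1 : 1 - 2 * y / x = 1 + 2 * exp (ψ * I) := by
      rw [hψ, ← e0]; ring
    have e2 : 1 - x / 2 / y = 1 + exp (-(ψ * I)) / 2 := by
      rw [exp_neg, hψ, ← e0, inv_neg, inv_div]; ring
    rw [log_im, log_im, e1, e2, arg_aux h1 h2]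
  have a1 := neg_pi_lt_arg x
  have a2 := arg_le_pi x
  have a3 := neg_pi_lt_arg y
  have a4 := arg_le_pi y
  split_ifs with h
  · refine key _ ?_ (by linarith) (by linarith)
    push_cast
    rw [add_mul, exp_add, exp_pi_mul_I]; ring
  · have : arg x < arg y := lt_of_le_of_ne (not_lt.1 h) hne.symm
    refine key _ ?_ (by linarith) (by linarith)
    push_cast
    rw [add_mul, exp_add, neg_mul, exp_neg, exp_pi_mul_I]; ring

theorem var_radial {x y : ℂ} (hx : x ≠ 0) (hxy : ‖y‖ = ‖x‖) (hne : y ≠ x) :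
    var (fun t => ((t : ℂ) + 1) * y - x / 2) (-1) 0 = log (1 - 2 * y / x) := by
  have hs : ∀ t ∈ Icc (-1 : ℝ) 0, 1 - 2 * ((t : ℂ) + 1) * y / x ∈ slitPlane := by
    intro t ht
    by_contra hc
    rw [mem_slitPlane_iff, not_or, not_not, not_lt] at hc
    obtain ⟨h1, h2⟩ := hc
    have e : (1 - 2 * ((t : ℂ) + 1) * y / x) = 1 - ((2 * (t + 1) : ℝ) : ℂ) * (y / x) := by
      push_cast; ring
    rw [e] at h1 h2
    simp only [sub_re, one_re, re_ofReal_mul, sub_im, one_im, im_ofReal_mul, zero_sub,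
      neg_eq_zero, mul_eq_zero] at h1 h2
    have hn : ‖y / x‖ = 1 := by rw [norm_div, hxy, div_self (norm_ne_zero_iff.2 hx)]
    have ht0 : 0 ≤ 2 * (t + 1) := by linarith [ht.1]
    have hre : 0 < (y / x).re := by
      by_contra hc
      push Not at hc
      nlinarith
    have him : (y / x).im = 0 := by
      rcases h2 with h2 | h2
      · exfalso
        rcases h2 with h2 | h2
        · norm_num at h2
        · rw [h2] at h1; norm_num at h1
      · exact h2
    have h3 : y / x = ((y / x).re : ℂ) := by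
      apply Complex.ext <;> simp [him]
    rw [h3, norm_real, Real.norm_eq_abs, abs_of_pos hre] at hn
    rw [hn] at h3
    apply hne
    field_simp at h3
    simpa using h3
  have hl : IsLift (fun t : ℝ => ((t : ℂ) + 1) * y - x / 2)
      (fun t => log (-x / 2) + log (1 - 2 * ((t : ℂ) + 1) * y / x)) (Icc (-1) 0) := by
    refine ⟨continuousOn_const.add (ContinuousOn.clog (by fun_prop) hs), fun t ht => ?_⟩
    rw [exp_add, exp_log (slitPlane_ne_zero (hs t ht)), exp_log (by simpa using hx)]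
    field_simp
    ring
  rw [var_eq (by norm_num) hl]
  simp

variable {V : Type*} {G : SimpleGraph V}

namespace Tame

variable (T : Tame G)

theorem out' {u : V} {d : G.Dart} (h : d.fst ≠ u) :
    ∀ t ∈ Icc (-1 : ℝ) (1 / 2), T.ε ≤ ‖T.h d t - T.p u‖ := by
  intro t ht
  rcases le_total 0 t with h0 | h0
  · exact T.out d u t ⟨h0, ht.2⟩
  · have h1 := T.far _ _ h
    rw [T.radial d t ⟨ht.1, h0⟩]
    have h2 : ‖((t : ℂ) + 1) * T.r d‖ ≤ T.ε := by
      rw [norm_mul, T.norm_r, ← ofReal_one, ← ofReal_add, norm_real, Real.norm_eq_abs,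
        abs_of_nonneg (by linarith [ht.1])]
      nlinarith [T.ε_pos]
    have h3 := norm_sub_le (T.p d.fst + ((t : ℂ) + 1) * T.r d - T.p u) (((t : ℂ) + 1) * T.r d)
    rw [show T.p d.fst + ((t : ℂ) + 1) * T.r d - T.p u - ((t : ℂ) + 1) * T.r d =
      T.p d.fst - T.p u by ring] at h3
    linarith

variable [Fintype G.Dart] [DecidableEq V]

/-- the constant of the vertex `u` -/
noncomputable def K (c : G.Dart → ℝ) (u : V) : ℂ :=
  ∑ d', c d' * var (fun t => T.h d' t - T.p u) (if d'.fst = u then 0 else -1) (1 / 2)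

theorem S_eq {c : G.Dart → ℝ} (hc : IsCirc c) (d : G.Dart) :
    T.S c d = T.K c d.fst + (∑ d' with d'.fst = d.fst ∧ d' ≠ d,
      c d' * (log (1 - 2 * T.r d' / T.r d) - log (1 - T.r d / 2 / T.r d'))) -
        c d * log (1 / 2) := by
  have hw : ‖T.r d / 2‖ < T.ε := by
    rw [norm_div, T.norm_r]
    have := T.ε_pos
    norm_num
    linarith
  have hm := T.h_mid d
  set a : G.Dart → ℝ := fun d' => if d'.fst = d.fst then 0 else -1 with ha
  have hout : ∀ d', ∀ t ∈ Icc (a d') (1 / 2), ‖T.r d / 2‖ < ‖T.h d' t - T.p d.fst‖ := by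
    intro d' t ht
    simp only [ha] at ht
    split_ifs at ht with h
    · exact hw.trans_le (T.out d' _ t ht)
    · exact hw.trans_le (T.out' h t ht)
  have ha2 : ∀ d', a d' ≤ 1 / 2 := fun d' => by
    simp only [ha]; split_ifs <;> norm_num
  have hB : ∀ d', var (fun t => T.h d' t - T.h d (-1 / 2)) (a d') (1 / 2) =
      var (fun t => T.h d' t - T.p d.fst) (a d') (1 / 2) +
        log (1 - T.r d / 2 / (T.h d' (1 / 2) - T.p d.fst)) -
        (log (1 - T.r d / 2 / (T.p d'.fst - T.p d.fst)) +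
          if d'.fst = d.fst then log (1 - T.r d / 2 / T.r d') else 0) := by
    intro d'
    rw [hm, var_disc (ha2 d') (T.cont d') (hout d')]
    congr 1
    simp only [ha]
    split_ifs with h
    · rw [T.radial d' 0 (right_mem_Icc.2 (by norm_num)), h]; simp
    · rw [T.h_start]; simp
  have hA : ∀ d' ∈ Finset.univ.filter (fun d' : G.Dart => d' ≠ d ∧ d' ≠ d.symm),
      (c d' : ℂ) * var (fun t => T.h d' t - T.h d (-1 / 2)) (-1) (1 / 2) =
        c d' * var (fun t => T.h d' t - T.h d (-1 / 2)) (a d') (1 / 2) +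
          if d'.fst = d.fst ∧ d' ≠ d then c d' * log (1 - 2 * T.r d' / T.r d) else 0 := by
    intro d' hd'
    obtain ⟨h1, h2⟩ := (Finset.mem_filter.1 hd').2
    simp only [ha]
    by_cases h : d'.fst = d.fst
    · have hcont := T.cont d'
      rw [if_pos h, if_pos ⟨h, h1⟩, var_add (b := 0) (by norm_num) (by norm_num) (by fun_prop)
        (fun t ht => sub_ne_zero.2 (by
          rw [← T.Γ_left d (by norm_num)]
          exact T.h_ne_Γ h1 h2 _ ⟨by norm_num, by norm_num⟩ t ht)),
        ← var_radial (T.r_ne_zero d) (by rw [T.norm_r, T.norm_r])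
          (fun hr => h1 (T.r_inj h hr)),
        var_congr (f' := fun t => ((t : ℂ) + 1) * T.r d' - T.r d / 2) (by norm_num)
          (fun t ht => by rw [T.radial d' t ht, hm, h]; ring)]
      ring
    · rw [if_neg h, if_neg (fun h' => h h'.1), add_zero]
  have hΓ := T.Γ_cont d
  have hs := T.cont d.symm
  have hC : var (fun t => T.Γ d t - T.h d (-1 / 2)) 0 2 =
      var (fun t => T.h d t - T.h d (-1 / 2)) (a d) (1 / 2) -
        var (fun t => T.h d.symm t - T.h d (-1 / 2)) (a d.symm) (1 / 2) := by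
    have a1 : a d = 0 := by simp [ha]
    have a2 : a d.symm = -1 := by simp [ha, d.snd_ne_fst]
    rw [a1, a2, var_add (b := 1 / 2) (by norm_num) (by norm_num) (by fun_prop)
      (fun t ht h => by
        rw [← T.Γ_left d (by norm_num)] at h
        have := T.Γ_inj d ⟨by linarith [ht.1], ht.2⟩ ⟨by norm_num, by norm_num⟩ (sub_eq_zero.1 h)
        linarith [ht.1]),
      var_congr (f' := fun t => T.h d t - T.h d (-1 / 2)) (by norm_num)
        (fun t ht => by rw [T.Γ_left d ht.2]),
      var_reverse (f := fun t => T.h d.symm t - T.h d (-1 / 2)) (a := -1) (b := 1 / 2)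
        (a' := 1 / 2) (b' := 2)
        (by norm_num) (by norm_num) (by norm_num) (by fun_prop)
        (fun t ht h => by
          have h1 := T.out' (d := d.symm) (u := d.fst) d.snd_ne_fst t ht
          rw [sub_eq_zero.1 h, hm, add_sub_cancel_left] at h1
          linarith)
        (fun t ht => by rw [T.Γ_right d ht.1])]
    ring
  have e1 := sum_split (fun d' => (c d' : ℂ) *
    var (fun t => T.h d' t - T.h d (-1 / 2)) (a d') (1 / 2)) d
  have e2 := sum_split (fun d' => if d'.fst = d.fst ∧ d' ≠ d then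
    (c d' : ℂ) * log (1 - 2 * T.r d' / T.r d) else 0) d
  rw [if_neg (by simp), if_neg (by simp [d.snd_ne_fst]), ← Finset.sum_filter] at e2
  have e3 := hc.sum_edge (fun d' => log (1 - T.r d / 2 / (T.h d' (1 / 2) - T.p d.fst)))
    (fun d' => by rw [T.mid])
  have e4 := hc.sum_vertex (fun v => log (1 - T.r d / 2 / (T.p v - T.p d.fst)))
  have e5 : ∑ d', (c d' : ℂ) * (if d'.fst = d.fst then log (1 - T.r d / 2 / T.r d') else 0) =
      (∑ d' with d'.fst = d.fst ∧ d' ≠ d, c d' * log (1 - T.r d / 2 / T.r d')) +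
        c d * log (1 / 2) := by
    rw [← Finset.add_sum_erase _ _ (Finset.mem_univ d), if_pos rfl, add_comm, Finset.sum_filter,
      ← Finset.add_sum_erase _ _ (Finset.mem_univ d), if_neg (by simp), zero_add]
    congr 1
    · refine Finset.sum_congr rfl fun d' hd' => ?_
      have := Finset.ne_of_mem_erase hd'
      by_cases h : d'.fst = d.fst <;> simp [h, this]
    · congr 2
      have := T.r_ne_zero d
      field_simp
      ring
  have e6 : ∑ d', (c d' : ℂ) * var (fun t => T.h d' t - T.h d (-1 / 2)) (a d') (1 / 2) =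
      T.K c d.fst - ((∑ d' with d'.fst = d.fst ∧ d' ≠ d, c d' * log (1 - T.r d / 2 / T.r d')) +
        c d * log (1 / 2)) := by
    simp only [hB, mul_add, mul_sub, Finset.sum_add_distrib, Finset.sum_sub_distrib]
    rw [e3, e4, e5]
    simp only [K, ha]
    ring
  unfold S
  rw [Finset.sum_congr rfl hA, Finset.sum_add_distrib, hC]
  simp only [mul_sub, Finset.sum_sub_distrib]
  rw [hc.symm] at e1
  push_cast at e1
  linear_combination e6 - e1 - e2

theorem S_im {c : G.Dart → ℝ} (hc : IsCirc c) (d : G.Dart) :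
    (T.S c d).im = (T.K c d.fst).im + ∑ d' with d'.fst = d.fst, c d' * arg (T.r d') +
      2 * Real.pi * (∑ d' with d'.fst = d.fst ∧ arg (T.r d') < arg (T.r d), c d' + c d / 2) := by
  have hne : ∀ d' : G.Dart, d'.fst = d.fst → d' ≠ d → arg (T.r d') ≠ arg (T.r d) :=
    fun d' h1 h2 h => h2 (T.r_inj h1 (ext_norm_arg (by rw [T.norm_r, T.norm_r]) h))
  have h0 : (log (1 / 2)).im = 0 := by
    rw [log_im, show (1 / 2 : ℂ) = ((1 / 2 : ℝ) : ℂ) by push_cast; rfl]
    exact arg_ofReal_of_nonneg (by norm_num)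
  rw [T.S_eq hc]
  simp only [sub_im, add_im, im_sum, im_ofReal_mul, h0, mul_zero, sub_zero]
  have e1 : ∑ d' with d'.fst = d.fst ∧ d' ≠ d, c d' * ((log (1 - 2 * T.r d' / T.r d)).im -
      (log (1 - T.r d / 2 / T.r d')).im) = ∑ d' with d'.fst = d.fst ∧ d' ≠ d,
        (c d' * arg (T.r d') - c d' * (arg (T.r d) + Real.pi) +
          2 * Real.pi * if arg (T.r d') < arg (T.r d) then c d' else 0) := by
    refine Finset.sum_congr rfl fun d' hd' => ?_
    obtain ⟨h1, h2⟩ := (Finset.mem_filter.1 hd').2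
    rw [arg_key (T.r_ne_zero d) (by rw [T.norm_r, T.norm_r]) (hne d' h1 h2)]
    split_ifs <;> ring
  have e2 : ∀ F : G.Dart → ℝ, ∑ d' with d'.fst = d.fst ∧ d' ≠ d, F d' =
      ∑ d' with d'.fst = d.fst, F d' - F d := by
    intro F
    rw [← Finset.add_sum_erase (Finset.univ.filter fun d' : G.Dart => d'.fst = d.fst) F
      (a := d) (by simp), add_sub_cancel_left]
    refine Finset.sum_congr ?_ fun _ _ => rfl
    ext x; simp [and_comm]
  rw [e1, e2, Finset.sum_add_distrib, Finset.sum_sub_distrib, ← Finset.sum_mul, hc.sum,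
    ← Finset.mul_sum, ← Finset.sum_filter, Finset.filter_filter, if_neg (lt_irrefl _)]
  ring

end Tame

end Vale.Agent.Planar
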