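import Vale.Agent.Planar.Defs

/-!
# Taming a plane drawing: half-edges which are radial near the vertices
-/

namespace Vale.Agent.Planar

open Set Filter Topology

variable {V : Type*} {G : SimpleGraph V}

/-- A drawing of `G` in `ℂ` by arcs parametrised by `[0, 1]`, one for each dart. -/
structure Arcs (G : SimpleGraph V) where
  p : V → ℂ
  α : G.Dart → ℝ → ℂ
  inj_p : Function.Injective p
  cont : ∀ d, Continuous (α d)
  zero : ∀ d, α d 0 = p d.fst
  symm : ∀ d t, α d.symm t = α d (1 - t)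
  inj : ∀ d, InjOn (α d) (Icc 0 1)
  vert : ∀ d w, ∀ t ∈ Icc (0 : ℝ) 1, α d t = p w → w = d.fst ∨ w = d.snd
  disj : ∀ d d' : G.Dart, d.edge ≠ d'.edge → ∀ s ∈ Icc (0 : ℝ) 1, ∀ t ∈ Icc (0 : ℝ) 1,
    α d s = α d' t → ∃ w, α d s = p w

theorem exists_arcs (h : IsPlanar G) : Nonempty (Arcs G) := by
  obtain ⟨p, γ, hp, hinj, hsymm, hvert, hdisj⟩ := h
  let φ : EuclideanSpace ℝ (Fin 2) ≃ₗᵢ[ℝ] ℂ := Complex.orthonormalBasisOneI.repr.symm
  refine ⟨⟨fun v => φ (p v), fun d t => φ ((γ d.fst d.snd d.adj).extend t),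
    φ.injective.comp hp, fun d => φ.continuous.comp (Path.continuous_extend _), fun d => by simp,
    fun d t => ?_, fun d s hs t ht hst => ?_, fun d w t ht hw => ?_,
    fun d d' hne s hs t ht hst => ?_⟩⟩
  · have := hsymm d.fst d.snd d.adj
    change φ ((γ d.snd d.fst d.adj.symm).extend t) = _
    rw [this, Path.extend_symm_apply]
  · have h1 := φ.injective hst
    rw [Path.extend_apply _ hs, Path.extend_apply _ ht] at h1
    exact congrArg Subtype.val (hinj _ _ _ h1)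
  · have h1 := φ.injective hw
    rw [Path.extend_apply _ ht] at h1
    exact hvert _ _ _ _ _ h1
  · have h1 := φ.injective hst
    rw [Path.extend_apply _ hs, Path.extend_apply _ ht] at h1
    obtain ⟨w, hw⟩ := hdisj _ _ _ _ _ _ _ _ hne h1
    exact ⟨w, by rw [Path.extend_apply _ hs, hw]⟩

/-- A tame drawing: half-edges parametrised by `[-1, 1/2]`, radial on `[-1, 0]`. -/
structure Tame (G : SimpleGraph V) where
  p : V → ℂ
  ε : ℝ
  h : G.Dart → ℝ → ℂ
  r : G.Dart → ℂ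
  ε_pos : 0 < ε
  cont : ∀ d, Continuous (h d)
  norm_r : ∀ d, ‖r d‖ = ε
  radial : ∀ d, ∀ t ∈ Icc (-1 : ℝ) 0, h d t = p d.fst + (t + 1) * r d
  out : ∀ d w, ∀ t ∈ Icc (0 : ℝ) (1 / 2), ε ≤ ‖h d t - p w‖
  far : ∀ u v, u ≠ v → 2 * ε < ‖p u - p v‖
  mid : ∀ d, h d.symm (1 / 2) = h d (1 / 2)
  disj : ∀ d d', ∀ s ∈ Icc (-1 : ℝ) (1 / 2), ∀ t ∈ Icc (-1 : ℝ) (1 / 2), h d s = h d' t →
    (d = d' ∧ s = t) ∨ (s = -1 ∧ t = -1) ∨ (d' = d.symm ∧ s = 1 / 2 ∧ t = 1 / 2)

theorem Arcs.exists_eps [Finite V] (A : Arcs G) : ∃ ε : ℝ, 0 < ε ∧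
    (∀ u v, u ≠ v → 2 * ε < ‖A.p u - A.p v‖) ∧
    ∀ (d : G.Dart) w, w ≠ d.fst → ∀ t ∈ Icc (0 : ℝ) (1 / 2), ε < ‖A.α d t - A.p w‖ := by
  have hlt : ∀ δ : ℝ, 0 < δ → ∀ᶠ ε in 𝓝[>] (0 : ℝ), ε < δ := fun δ hδ =>
    mem_nhdsWithin_of_mem_nhds (Iio_mem_nhds hδ)
  have h1 : ∀ᶠ ε in 𝓝[>] (0 : ℝ), ∀ u v, u ≠ v → 2 * ε < ‖A.p u - A.p v‖ := by
    refine eventually_all.2 fun u => eventually_all.2 fun v => ?_
    by_cases huv : u = v
    · exact Eventually.of_forall fun _ h => absurd huv h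
    · have : 0 < ‖A.p u - A.p v‖ := norm_pos_iff.2 (sub_ne_zero.2 (A.inj_p.ne huv))
      filter_upwards [hlt (‖A.p u - A.p v‖ / 2) (by linarith)] with ε hε _
      linarith
  have : Finite G.Dart := Finite.of_injective _ SimpleGraph.Dart.toProd_injective
  have h2 : ∀ᶠ ε in 𝓝[>] (0 : ℝ), ∀ (d : G.Dart) w, w ≠ d.fst →
      ∀ t ∈ Icc (0 : ℝ) (1 / 2), ε < ‖A.α d t - A.p w‖ := by
    refine eventually_all.2 fun d => eventually_all.2 fun w => ?_
    by_cases hw : w = d.fst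
    · exact Eventually.of_forall fun _ h => absurd hw h
    · have hc : Continuous fun t => ‖A.α d t - A.p w‖ := by
        have := A.cont d
        fun_prop
      obtain ⟨t₀, ht₀, hmin⟩ := (isCompact_Icc (a := (0 : ℝ)) (b := 1 / 2)).exists_isMinOn
        (nonempty_Icc.2 (by norm_num)) hc.continuousOn
      have hpos : 0 < ‖A.α d t₀ - A.p w‖ := by
        refine norm_pos_iff.2 (sub_ne_zero.2 fun h => ?_)
        have ht₀' : t₀ ∈ Icc (0 : ℝ) 1 := ⟨ht₀.1, by linarith [ht₀.2]⟩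
        rcases A.vert d w t₀ ht₀' h with h' | h'
        · exact hw h'
        · have e1 : A.α d 1 = A.p d.snd := by
            have := A.symm d 0
            rw [A.zero, sub_zero] at this
            exact this.symm
          have := A.inj d ht₀' (right_mem_Icc.2 zero_le_one) (by rw [h, e1, h'])
          linarith [ht₀.2]
      filter_upwards [hlt _ hpos] with ε hε _ t ht
      exact hε.trans_le (hmin ht)
  have h0 : ∀ᶠ ε in 𝓝[>] (0 : ℝ), 0 < ε := self_mem_nhdsWithin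
  obtain ⟨ε, hε, h3, h4⟩ := (h0.and (h1.and h2)).exists
  exact ⟨ε, hε, h3, h4⟩

theorem exists_last_exit {f : ℝ → ℝ} (hf : Continuous f) {ε : ℝ} (h0 : f 0 < ε)
    (h1 : ε < f (1 / 2)) : ∃ s, 0 < s ∧ s < 1 / 2 ∧ f s = ε ∧ ∀ t ∈ Icc s (1 / 2), ε ≤ f t := by
  have hcl : IsCompact (Icc (0 : ℝ) (1 / 2) ∩ f ⁻¹' {ε}) :=
    isCompact_Icc.inter_right (isClosed_singleton.preimage hf)
  have hne : (Icc (0 : ℝ) (1 / 2) ∩ f ⁻¹' {ε}).Nonempty := by
    obtain ⟨t, ht, hft⟩ := intermediate_value_Icc (by norm_num : (0 : ℝ) ≤ 1 / 2)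
      hf.continuousOn (show ε ∈ Icc (f 0) (f (1 / 2)) from ⟨h0.le, h1.le⟩)
    exact ⟨t, ht, hft⟩
  obtain ⟨s, ⟨hs, hfs⟩, hmax⟩ := hcl.exists_isGreatest hne
  have hfs : f s = ε := hfs
  refine ⟨s, lt_of_le_of_ne hs.1 ?_, lt_of_le_of_ne hs.2 ?_, hfs, fun t ht => ?_⟩
  · rintro rfl; linarith
  · rintro rfl; linarith
  · by_contra hlt
    push Not at hlt
    obtain ⟨t', ht', hft⟩ := intermediate_value_Icc ht.2 hf.continuousOn
      (show ε ∈ Icc (f t) (f (1 / 2)) from ⟨hlt.le, h1.le⟩)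
    have h2 : t' ≤ s := hmax ⟨⟨by linarith [hs.1, ht.1, ht'.1], ht'.2⟩, hft⟩
    have h3 : t = s := le_antisymm (ht'.1.trans h2) ht.1
    rw [h3] at hlt
    linarith

theorem Arcs.exists_tame [Finite V] (A : Arcs G) : Nonempty (Tame G) := by
  classical
  obtain ⟨ε, hε, hfar, hout⟩ := A.exists_eps
  have hs : ∀ d : G.Dart, ∃ s, 0 < s ∧ s < 1 / 2 ∧ ‖A.α d s - A.p d.fst‖ = ε ∧
      ∀ t ∈ Icc s (1 / 2), ε ≤ ‖A.α d t - A.p d.fst‖ := by
    intro d
    refine exists_last_exit (f := fun t => ‖A.α d t - A.p d.fst‖) ?_ ?_ ?_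
    · have := A.cont d
      fun_prop
    · simpa [A.zero] using hε
    · have := hout d.symm d.fst d.fst_ne_snd (1 / 2) (right_mem_Icc.2 (by norm_num))
      rw [A.symm] at this
      norm_num at this ⊢
      exact this
  choose s hs0 hs1 hsε hsout using hs
  let r : G.Dart → ℂ := fun d => A.α d (s d) - A.p d.fst
  let τ : G.Dart → ℝ → ℝ := fun d t => s d + t * (1 - 2 * s d)
  let h : G.Dart → ℝ → ℂ := fun d t =>
    if t ≤ 0 then A.p d.fst + (t + 1) * r d else A.α d (τ d t)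
  have hτ : ∀ d, ∀ t ∈ Icc (0 : ℝ) (1 / 2), τ d t ∈ Icc (s d) (1 / 2) := fun d t ht => by
    have := hs1 d
    constructor <;> simp only [τ] <;> nlinarith [ht.1, ht.2]
  have hpos : ∀ d, ∀ t, 0 ≤ t → h d t = A.α d (τ d t) := fun d t ht => by
    simp only [h]
    split_ifs with h1
    · have : t = 0 := le_antisymm h1 ht
      subst this
      simp [τ, r]
    · rfl
  have hneg : ∀ d, ∀ t, t ≤ 0 → h d t = A.p d.fst + (t + 1) * r d := fun d t ht => by
    simp only [h, if_pos ht]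
  have hout' : ∀ d w, ∀ t ∈ Icc (0 : ℝ) (1 / 2), ε ≤ ‖h d t - A.p w‖ := fun d w t ht => by
    rw [hpos d t ht.1]
    by_cases hw : w = d.fst
    · rw [hw]; exact hsout d _ (hτ d t ht)
    · exact (hout d w hw _ ⟨by linarith [(hτ d t ht).1, hs0 d], (hτ d t ht).2⟩).le
  have hnorm : ∀ d, ∀ t ∈ Icc (-1 : ℝ) 0, ‖h d t - A.p d.fst‖ = (t + 1) * ε := fun d t ht => by
    rw [hneg d t ht.2, add_sub_cancel_left, norm_mul, hsε d]
    congr 1
    rw [← Complex.ofReal_one, ← Complex.ofReal_add, Complex.norm_real, Real.norm_eq_abs,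
      abs_of_nonneg (by linarith [ht.1])]
  have hpp : ∀ d d', ∀ a ∈ Icc (0 : ℝ) (1 / 2), ∀ b ∈ Icc (0 : ℝ) (1 / 2), h d a = h d' b →
      (d = d' ∧ a = b) ∨ (d' = d.symm ∧ a = 1 / 2 ∧ b = 1 / 2) := by
    intro d d' a ha b hb hab
    have hab' := hab
    rw [hpos d a ha.1, hpos d' b hb.1] at hab
    have m1 : τ d a ∈ Icc (0 : ℝ) 1 :=
      ⟨by linarith [(hτ d a ha).1, hs0 d], by linarith [(hτ d a ha).2]⟩
    have m2 : τ d' b ∈ Icc (0 : ℝ) 1 :=
      ⟨by linarith [(hτ d' b hb).1, hs0 d'], by linarith [(hτ d' b hb).2]⟩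
    by_cases he : d.edge = d'.edge
    · rcases (SimpleGraph.dart_edge_eq_iff _ _).1 he.symm with rfl | rfl
      · left
        have := A.inj d' m1 m2 hab
        simp only [τ] at this
        refine ⟨rfl, ?_⟩
        have h2 : 0 < 1 - 2 * s d' := by linarith [hs1 d']
        exact mul_right_cancel₀ h2.ne' (by linarith)
      · right
        rw [A.symm] at hab
        have := A.inj d m1 ⟨by linarith [m2.2], by linarith [m2.1]⟩ hab
        have e1 : τ d a = 1 / 2 := by linarith [(hτ d a ha).2, (hτ d.symm b hb).2]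
        have e2 : τ d.symm b = 1 / 2 := by linarith [(hτ d a ha).2, (hτ d.symm b hb).2]
        simp only [τ] at e1 e2
        have h2 : 0 < 1 - 2 * s d := by linarith [hs1 d]
        have h3 : 0 < 1 - 2 * s d.symm := by linarith [hs1 d.symm]
        exact ⟨rfl, mul_right_cancel₀ h2.ne' (by linarith), mul_right_cancel₀ h3.ne' (by linarith)⟩
    · obtain ⟨w, hw⟩ := A.disj d d' he _ m1 _ m2 hab
      have := hout' d w a ha
      rw [hpos d a ha.1, hw, sub_self, norm_zero] at this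
      linarith
  have hnp : ∀ d d', ∀ a ∈ Ico (-1 : ℝ) 0, ∀ b ∈ Icc (0 : ℝ) (1 / 2), h d a ≠ h d' b := by
    intro d d' a ha b hb hab
    have h1 := hnorm d a ⟨ha.1, ha.2.le⟩
    have h2 := hout' d' d.fst b hb
    rw [← hab, h1] at h2
    nlinarith [ha.2]
  refine ⟨⟨A.p, ε, h, r, hε, fun d => ?_, hsε, fun d t ht => hneg d t ht.2, hout', hfar,
    fun d => ?_, fun d d' a ha b hb hab => ?_⟩⟩
  · have := A.cont d
    refine Continuous.if_le (by fun_prop) (this.comp (by fun_prop)) continuous_id continuous_const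
      fun t ht => ?_
    have ht : t = 0 := ht
    subst ht
    simp [τ, r]
  · rw [hpos _ _ (by norm_num), hpos _ _ (by norm_num), A.symm]
    congr 1
    simp only [τ]
    ring
  · rcases lt_or_ge a 0 with ha0 | ha0 <;> rcases lt_or_ge b 0 with hb0 | hb0
    · have h1 := hnorm d a ⟨ha.1, ha0.le⟩
      have h2 := hnorm d' b ⟨hb.1, hb0.le⟩
      have hfst : d.fst = d'.fst := by
        by_contra hne
        have h3 := hfar _ _ hne
        have h4 : A.p d.fst - A.p d'.fst = (h d' b - A.p d'.fst) - (h d a - A.p d.fst) := by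
          rw [hab]; ring
        have h5 := norm_sub_le (h d' b - A.p d'.fst) (h d a - A.p d.fst)
        rw [← h4, h1, h2] at h5
        nlinarith
      rw [hab, hfst, h2] at h1
      have hba : b = a := by
        have := mul_right_cancel₀ hε.ne' h1
        linarith
      subst hba
      by_cases hm : b = -1
      · exact Or.inr (Or.inl ⟨hm, hm⟩)
      · left
        rw [hneg d b ha0.le, hneg d' b ha0.le, hfst] at hab
        have hb1 : (b : ℂ) + 1 ≠ 0 := by
          intro h0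
          apply hm
          have := congrArg Complex.re h0
          simp at this
          linarith
        have hr : r d = r d' := mul_left_cancel₀ hb1 (add_left_cancel hab)
        have h0 : h d 0 = h d' 0 := by rw [hneg d 0 le_rfl, hneg d' 0 le_rfl, hfst, hr]
        rcases hpp d d' 0 (left_mem_Icc.2 (by norm_num)) 0 (left_mem_Icc.2 (by norm_num)) h0
          with h6 | h6
        · exact ⟨h6.1, rfl⟩
        · norm_num at h6
    · exact absurd hab (hnp d d' a ⟨ha.1, ha0⟩ b ⟨hb0, hb.2⟩)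
    · exact absurd hab.symm (hnp d' d b ⟨hb.1, hb0⟩ a ⟨ha0, ha.2⟩)
    · rcases hpp d d' a ⟨ha0, ha.2⟩ b ⟨hb0, hb.2⟩ hab with h6 | h6
      · exact Or.inl h6
      · exact Or.inr (Or.inr h6)

theorem exists_tame [Finite V] (h : IsPlanar G) : Nonempty (Tame G) :=
  (exists_arcs h).elim fun A => A.exists_tame

end Vale.Agent.Planar
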