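import Vale.Agent.Planar.Tame
import Vale.Agent.Planar.Log

/-!
# Winding sums of a circulation in a tame drawing
-/

namespace Vale.Agent.Planar

open Set Complex

variable {V : Type*} {G : SimpleGraph V}

namespace Tame

variable (T : Tame G)

/-- the whole edge, parametrised by `[-1, 2]` -/
noncomputable def Γ (d : G.Dart) (t : ℝ) : ℂ :=
  if t ≤ 1 / 2 then T.h d t else T.h d.symm (1 - t)

theorem Γ_left (d : G.Dart) {t : ℝ} (ht : t ≤ 1 / 2) : T.Γ d t = T.h d t := if_pos ht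

theorem Γ_right (d : G.Dart) {t : ℝ} (ht : 1 / 2 ≤ t) : T.Γ d t = T.h d.symm (1 - t) := by
  unfold Γ
  split_ifs with h
  · have : t = 1 / 2 := le_antisymm h ht
    subst this
    rw [← T.mid]; norm_num
  · rfl

theorem Γ_cont (d : G.Dart) : Continuous (T.Γ d) := by
  refine Continuous.if_le (T.cont d) ((T.cont d.symm).comp (by fun_prop)) continuous_id
    continuous_const fun t ht => ?_
  have ht : t = 1 / 2 := ht
  subst ht
  rw [← T.mid]; norm_num

theorem Γ_symm (d : G.Dart) (t : ℝ) : T.Γ d.symm t = T.Γ d (1 - t) := by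
  rcases le_total t (1 / 2) with h | h
  · rw [T.Γ_left _ h, T.Γ_right _ (by linarith)]; simp
  · rw [T.Γ_right _ h, T.Γ_left _ (by linarith)]; simp

theorem h_start (d : G.Dart) : T.h d (-1) = T.p d.fst := by
  rw [T.radial d (-1) (left_mem_Icc.2 (by norm_num))]; simp

theorem p_inj {u v : V} (h : T.p u = T.p v) : u = v := by
  by_contra hne
  have := T.far u v hne
  rw [h, sub_self, norm_zero] at this
  linarith [T.ε_pos]

theorem Γ_inj (d : G.Dart) : InjOn (T.Γ d) (Icc (-1) 2) := by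
  have key : ∀ s ∈ Icc (-1 : ℝ) (1 / 2), ∀ t ∈ Icc (1 / 2 : ℝ) 2, T.Γ d s = T.Γ d t → s = t := by
    intro s hs t ht h
    rw [T.Γ_left _ hs.2, T.Γ_right _ ht.1] at h
    rcases T.disj _ _ s hs (1 - t) ⟨by linarith [ht.2], by linarith [ht.1]⟩ h with
      h1 | h1 | h1
    · exact absurd h1.1.symm d.symm_ne
    · rw [h1.1, h1.2, T.h_start, T.h_start] at h
      exact absurd (T.p_inj h) d.fst_ne_snd
    · linarith [h1.2.1, h1.2.2]
  intro s hs t ht h
  rcases le_total s (1 / 2) with h1 | h1 <;> rcases le_total t (1 / 2) with h2 | h2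
  · rw [T.Γ_left _ h1, T.Γ_left _ h2] at h
    rcases T.disj _ _ s ⟨hs.1, h1⟩ t ⟨ht.1, h2⟩ h with h3 | h3 | h3
    · exact h3.2
    · rw [h3.1, h3.2]
    · rw [h3.2.1, h3.2.2]
  · exact key s ⟨hs.1, h1⟩ t ⟨h2, ht.2⟩ h
  · exact (key t ⟨ht.1, h2⟩ s ⟨h1, hs.2⟩ h.symm).symm
  · rw [T.Γ_right _ h1, T.Γ_right _ h2] at h
    rcases T.disj _ _ (1 - s) ⟨by linarith [hs.2], by linarith⟩ (1 - t)
      ⟨by linarith [ht.2], by linarith⟩ h with h3 | h3 | h3
    · linarith [h3.2]
    · linarith [h3.1, h3.2]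
    · linarith [h3.2.1, h3.2.2]

theorem h_ne_Γ {d d' : G.Dart} (h1 : d' ≠ d) (h2 : d' ≠ d.symm) :
    ∀ s ∈ Icc (-1 / 2 : ℝ) (3 / 2), ∀ t ∈ Icc (-1 : ℝ) (1 / 2), T.h d' t ≠ T.Γ d s := by
  intro s hs t ht h
  rcases le_total s (1 / 2) with h3 | h3
  · rw [T.Γ_left _ h3] at h
    rcases T.disj _ _ s ⟨by linarith [hs.1], h3⟩ t ht h.symm with h4 | h4 | h4
    · exact h1 h4.1.symm
    · linarith [h4.1, hs.1]
    · exact h2 h4.1
  · rw [T.Γ_right _ h3] at h
    rcases T.disj _ _ (1 - s) ⟨by linarith [hs.2], by linarith⟩ t ht h.symm with h4 | h4 | h4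
    · exact h2 h4.1.symm
    · linarith [h4.1, hs.2]
    · exact h1 (by simpa using h4.1)

theorem r_ne_zero (d : G.Dart) : T.r d ≠ 0 := by
  rw [← norm_pos_iff, T.norm_r]; exact T.ε_pos

theorem r_inj {d d' : G.Dart} (h1 : d.fst = d'.fst) (h2 : T.r d = T.r d') : d = d' := by
  have h0 : T.h d 0 = T.h d' 0 := by
    rw [T.radial d 0 (right_mem_Icc.2 (by norm_num)),
      T.radial d' 0 (right_mem_Icc.2 (by norm_num)), h1, h2]
  rcases T.disj _ _ 0 ⟨by norm_num, by norm_num⟩ 0 ⟨by norm_num, by norm_num⟩ h0 with h | h | h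
  · exact h.1
  · norm_num at h
  · norm_num at h

theorem h_mid (d : G.Dart) : T.h d (-1 / 2) = T.p d.fst + T.r d / 2 := by
  rw [T.radial d _ ⟨by norm_num, by norm_num⟩]; push_cast; ring

end Tame

variable [Fintype G.Dart] [DecidableEq V]

/-- circulations: antisymmetric functions on darts with zero sum at each vertex -/
structure IsCirc (c : G.Dart → ℝ) : Prop where
  symm : ∀ d, c d.symm = - c d
  sum : ∀ u, ∑ d with d.fst = u, c d = 0

theorem IsCirc.sum_vertex {c : G.Dart → ℝ} (hc : IsCirc c) (F : V → ℂ) :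
    ∑ d, (c d : ℂ) * F d.fst = 0 := by
  rw [← Finset.sum_fiberwise_of_maps_to (s := Finset.univ)
    (t := Finset.univ.image (fun d : G.Dart => d.fst)) (g := fun d : G.Dart => d.fst)
    (fun d _ => Finset.mem_image_of_mem _ (Finset.mem_univ d))]
  refine Finset.sum_eq_zero fun u _ => ?_
  have : ∑ d : G.Dart with d.fst = u, (c d : ℂ) * F d.fst =
      ((∑ d : G.Dart with d.fst = u, c d : ℝ) : ℂ) * F u := by
    push_cast
    rw [Finset.sum_mul]
    refine Finset.sum_congr rfl fun d hd => ?_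
    rw [(Finset.mem_filter.1 hd).2]
  rw [this, hc.sum]; simp

theorem IsCirc.sum_edge {c : G.Dart → ℝ} (hc : IsCirc c) (F : G.Dart → ℂ)
    (hF : ∀ d, F d.symm = F d) : ∑ d, (c d : ℂ) * F d = 0 := by
  have := Equiv.sum_comp (dartSymmPerm G) (fun d => (c d : ℂ) * F d)
  simp only [dartSymmPerm_apply, hc.symm, hF, ofReal_neg, neg_mul, Finset.sum_neg_distrib] at this
  linear_combination (-1 / 2 : ℂ) * this

theorem sum_split (F : G.Dart → ℂ) (d : G.Dart) :
    ∑ d', F d' = ∑ d' with d' ≠ d ∧ d' ≠ d.symm, F d' + F d + F d.symm := by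
  rw [← Finset.sum_filter_add_sum_filter_not Finset.univ (fun d' => d' ≠ d ∧ d' ≠ d.symm)]
  have : (Finset.univ.filter fun d' : G.Dart => ¬ (d' ≠ d ∧ d' ≠ d.symm)) = {d, d.symm} := by
    ext x; simp only [Finset.mem_filter, Finset.mem_univ, true_and, Finset.mem_insert,
      Finset.mem_singleton]; tauto
  rw [this, Finset.sum_pair d.symm_ne.symm]
  ring

namespace Tame

variable (T : Tame G)

/-- the winding sum of `c` around the midpoint of the radial part of `d` -/
noncomputable def S (c : G.Dart → ℝ) (d : G.Dart) : ℂ :=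
  ∑ d' with d' ≠ d ∧ d' ≠ d.symm, c d' * var (fun t => T.h d' t - T.h d (-1 / 2)) (-1) (1 / 2) +
    c d * var (fun t => T.Γ d t - T.h d (-1 / 2)) 0 2

theorem S_symm {c : G.Dart → ℝ} (hc : IsCirc c) (d : G.Dart) : T.S c d.symm = T.S c d := by
  have m1 : T.h d (-1 / 2) = T.Γ d (-1 / 2) := (T.Γ_left d (by norm_num)).symm
  have m2 : T.h d.symm (-1 / 2) = T.Γ d (3 / 2) := by
    rw [T.Γ_right d (by norm_num)]; norm_num
  set lam : ℂ → ℂ := fun q => var (fun s => q - T.Γ d s) (-1 / 2) (3 / 2) with hlam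
  have hΓ := T.Γ_cont d
  have e1 : var (fun t => T.Γ d.symm t - T.Γ d (3 / 2)) 0 2 =
      - var (fun t => T.Γ d t - T.Γ d (3 / 2)) (-1) 1 := by
    refine var_reverse (by norm_num) (by norm_num) (by norm_num) (by fun_prop) (fun t ht h => ?_)
      (fun t _ => by rw [T.Γ_symm])
    have := T.Γ_inj d ⟨ht.1, by linarith [ht.2]⟩ ⟨by norm_num, by norm_num⟩ (sub_eq_zero.1 h)
    linarith [ht.2]
  have e2 := var_triangle hΓ (T.Γ_inj d) (x := T.r d / 2) (y := - T.r d.symm / 2)
    (fun s hs => by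
      rw [T.Γ_left d (by linarith [hs.2]), T.Γ_left d (by linarith [hs.2]),
        T.radial d _ ⟨by linarith [hs.1], by linarith [hs.2]⟩,
        T.radial d _ ⟨hs.1, by linarith [hs.2]⟩]
      push_cast; ring)
    (fun s hs => by
      rw [T.Γ_right d (by linarith [hs.1]), T.Γ_right d (by linarith [hs.1]),
        T.radial _ _ ⟨by linarith [hs.2], by linarith [hs.1]⟩,
        T.radial _ _ ⟨by linarith [hs.2], by linarith [hs.1]⟩]
      push_cast; ring)
  have e3 : T.Γ d 2 = T.p d.symm.fst := by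
    rw [T.Γ_right d (by norm_num), ← T.h_start]; norm_num
  have e4 : T.Γ d (-1) = T.p d.fst := by
    rw [T.Γ_left d (by norm_num), T.h_start]
  rw [e3, e4] at e2
  have e5 : ∀ d' ∈ Finset.univ.filter (fun d' : G.Dart => d' ≠ d ∧ d' ≠ d.symm),
      (c d' : ℂ) * var (fun t => T.h d' t - T.Γ d (3 / 2)) (-1) (1 / 2) =
        c d' * var (fun t => T.h d' t - T.Γ d (-1 / 2)) (-1) (1 / 2) +
          (c d' * lam (T.h d' (1 / 2)) - c d' * lam (T.p d'.fst)) := by
    intro d' hd'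
    obtain ⟨h1, h2⟩ := (Finset.mem_filter.1 hd').2
    have := var_rect (a := -1 / 2) (b := 3 / 2) (c := -1) (d := 1 / 2) (by norm_num)
      (by norm_num) hΓ (T.cont d') (T.h_ne_Γ h1 h2)
    rw [T.h_start] at this
    simp only [hlam]
    linear_combination (c d' : ℂ) * this
  have e6 := hc.sum_edge (fun d' => lam (T.h d' (1 / 2))) (fun d' => by rw [T.mid])
  have e7 := hc.sum_vertex (fun u => lam (T.p u))
  rw [sum_split _ d] at e6 e7
  rw [T.mid, hc.symm] at e6
  rw [hc.symm] at e7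
  unfold S
  simp only [SimpleGraph.Dart.symm_symm]
  rw [Finset.filter_congr (fun d' _ => (and_comm (a := d' ≠ d.symm) (b := d' ≠ d))), m1, m2,
    Finset.sum_congr rfl e5, Finset.sum_add_distrib, Finset.sum_sub_distrib, e1, hc.symm]
  simp only [hlam] at e6 e7 ⊢
  push_cast at e6 e7 ⊢
  linear_combination e6 - e7 + (c d : ℂ) * e2

end Tame

end Vale.Agent.Planar
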